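import Vale.Agent.Lib.P202.T1Lech

/-!
# Lech's inequality when `𝔪 S` lies between two consecutive powers of `𝔫`
-/

namespace Vale.Agent.Results.P202.A1_BetweenPowers

open IsLocalRing Vale.Agent.P202

/-- Let `(R, 𝔪) → (S, 𝔫)` be a flat local homomorphism of Noetherian local rings.
If `𝔫 ^ (w + 1) ⊆ 𝔪 S ⊆ 𝔫 ^ w` for some `w ≥ 1`, then `e(R) ≤ e(S)`. -/
theorem result {R S : Type*} [CommRing R] [CommRing S] [IsLocalRing R] [IsLocalRing S]
    [IsNoetherianRing R] [IsNoetherianRing S] [Algebra R S] [IsLocalHom (algebraMap R S)]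
    [Module.Flat R S] (w : ℕ) (hw : 1 ≤ w)
    (h1 : maximalIdeal S ^ (w + 1) ≤ (maximalIdeal R).map (algebraMap R S))
    (h2 : (maximalIdeal R).map (algebraMap R S) ≤ maximalIdeal S ^ w)
    (eR eS : ℝ) (hR : IsHSMultiplicity R eR) (hS : IsHSMultiplicity S eS) :
    eR ≤ eS :=
  lech_between_powers w hw h1 h2 eR eS hR hS

end Vale.Agent.Results.P202.A1_BetweenPowers
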