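import Vale.Agent.Lib.P202.TruncMain

/-!
# Lech's conjecture: closed fibres without relations in low degrees
-/

namespace Vale.Agent.Results.P202.A_LowDegreeFree

open IsLocalRing Vale.Agent.P202

/-- Let `(R, 𝔪) → (S, 𝔫)` be a flat local homomorphism of Noetherian local rings, `d = dim R`.
Assume `𝔫 = 𝔪 S + (x₁, …, x_r)` with `r ≥ 2`, `𝔫 ^ t ⊆ 𝔪 S`, and that the `x_i` satisfy no
homogeneous relation of degree `< c` in the closed fibre (`1 ≤ c ≤ t`): a form `p` of degree `j < c`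
with `p(x) ∈ 𝔪 S + 𝔫 ^ (j + 1)` has all its coefficients in `𝔫`. Then
`ℓ(S / 𝔪 S) e(R) ≤ (t - c + 1) ^ d e(S)`; hence `e(R) ≤ e(S)` if `(t - c + 1) ^ d ≤ ℓ(S / 𝔪 S)`,
and `e(S) = ℓ(S / 𝔪 S) e(R)` if `c = t`. -/
theorem result {R S : Type*} [CommRing R] [CommRing S] [IsLocalRing R] [IsLocalRing S]
    [IsNoetherianRing R] [IsNoetherianRing S] [Algebra R S] [IsLocalHom (algebraMap R S)]
    [Module.Flat R S] (r c t : ℕ) (hr : 2 ≤ r) (hc : 1 ≤ c) (hct : c ≤ t) (x : Fin r → S)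
    (hgen : maximalIdeal S = (maximalIdeal R).map (algebraMap R S) ⊔ Ideal.span (Set.range x))
    (hind : ∀ j < c, ∀ p : MvPolynomial (Fin r) S, p.IsHomogeneous j →
      MvPolynomial.eval x p ∈ (maximalIdeal R).map (algebraMap R S) ⊔ maximalIdeal S ^ (j + 1) →
        ∀ δ, MvPolynomial.coeff δ p ∈ maximalIdeal S)
    (hfib : maximalIdeal S ^ t ≤ (maximalIdeal R).map (algebraMap R S))
    (d : ℕ) (hd : ringKrullDim R = d)
    (eR eS : ℝ) (hR : IsHSMultiplicity R eR) (hS : IsHSMultiplicity S eS) :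
    ((Module.length S (S ⧸ (maximalIdeal R).map (algebraMap R S))).toNat : ℝ) * eR ≤
      ((t - c + 1 : ℕ) : ℝ) ^ d * eS ∧
    ((t - c + 1) ^ d ≤ (Module.length S (S ⧸ (maximalIdeal R).map (algebraMap R S))).toNat →
      eR ≤ eS) ∧
    (c = t →
      eS = ((Module.length S (S ⧸ (maximalIdeal R).map (algebraMap R S))).toNat : ℝ) * eR) := by
  have : Nontrivial (Fin r) := Fin.nontrivial_iff_two_le.2 hr
  have h1 := lech_trunc_bound x c t (t - c) hc (by omega) hgen hind hfib d hd eR eS hR hS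
  refine ⟨h1, ?_, ?_⟩
  · intro h2
    have h3 : (((t - c + 1 : ℕ) : ℝ)) ^ d ≤
        ((Module.length S (S ⧸ (maximalIdeal R).map (algebraMap R S))).toNat : ℝ) := by
      exact_mod_cast h2
    have h4 : (0 : ℝ) < ((t - c + 1 : ℕ) : ℝ) ^ d := by positivity
    have h5 := hR.nonneg
    have h7 : ((t - c + 1 : ℕ) : ℝ) ^ d * eR ≤ ((t - c + 1 : ℕ) : ℝ) ^ d * eS :=
      (mul_le_mul_of_nonneg_right h3 h5).trans h1
    exact le_of_mul_le_mul_left h7 h4
  · intro hct'
    subst hct'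
    have h2 := lech_upper c hfib eR eS hR hS
    simp only [Nat.sub_self, zero_add, Nat.cast_one, one_pow, one_mul] at h1
    exact le_antisymm h2 h1

end Vale.Agent.Results.P202.A_LowDegreeFree
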