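import Vale.Agent.Lib.P202.Combined

/-!
# Lech's inequality when the closed fibre is long compared with its Loewy length
-/

namespace Vale.Agent.Results.P202.B_LoewyLength

open IsLocalRing Vale.Agent.P202

/-- Let `(R, 𝔪) → (S, 𝔫)` be a flat local homomorphism of Noetherian local rings and `d = dim R`.
If `𝔫 ^ t ⊆ 𝔪 S` for some `t ≥ 2` with `(t - 1) ^ d ≤ ℓ(S / 𝔪 S)`, then `e(R) ≤ e(S)`. -/
theorem result {R S : Type*} [CommRing R] [CommRing S] [IsLocalRing R] [IsLocalRing S]
    [IsNoetherianRing R] [IsNoetherianRing S] [Algebra R S] [IsLocalHom (algebraMap R S)]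
    [Module.Flat R S] (t : ℕ) (ht : 2 ≤ t)
    (hfib : maximalIdeal S ^ t ≤ (maximalIdeal R).map (algebraMap R S))
    (d : ℕ) (hd : ringKrullDim R = d)
    (hlen : (t - 1) ^ d ≤ (Module.length S (S ⧸ (maximalIdeal R).map (algebraMap R S))).toNat)
    (eR eS : ℝ) (hR : IsHSMultiplicity R eR) (hS : IsHSMultiplicity S eS) :
    eR ≤ eS := by
  obtain ⟨t, rfl⟩ : ∃ t', t = t' + 1 := ⟨t - 1, by omega⟩
  exact lech_of_pow_le t (by omega) hfib d hd (by simpa using hlen) eR eS hR hS

end Vale.Agent.Results.P202.B_LoewyLength
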