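import Vale.Agent.Results.P202.A0_LeadingForms
import Vale.Agent.Results.P202.A1_BetweenPowers
import Vale.Agent.Results.P202.A_LowDegreeFree
import Vale.Agent.Results.P202.B_LoewyLength

/-!
# Lech's inequality: four classes of flat local homomorphisms in one statement

(1) leading forms of minimal generators of `𝔪 S` generate a primary ideal of the associated graded
ring; (2) closed fibres without relations in low degrees; (3) closed fibres that are long compared
with their Loewy length; (4) `𝔪 S` between two consecutive powers of `𝔫`.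
-/

namespace Vale.Agent.Results.P202.A00_Combined

open IsLocalRing Vale.Agent.P202

/-- Let `(R, 𝔪) → (S, 𝔫)` be a flat local homomorphism of Noetherian local rings with
Hilbert-Samuel multiplicities `e(R)`, `e(S)`.  Then the four statements of the hand-ins
`A0_LeadingForms`, `A_LowDegreeFree`, `B_LoewyLength`, `A1_BetweenPowers` hold. -/
theorem result {R S : Type*} [CommRing R] [CommRing S] [IsLocalRing R] [IsLocalRing S]
    [IsNoetherianRing R] [IsNoetherianRing S] [Algebra R S] [IsLocalHom (algebraMap R S)]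
    [Module.Flat R S] (eR eS : ℝ) (hR : IsHSMultiplicity R eR) (hS : IsHSMultiplicity S eS) :
    (∀ (b : Fin (maximalIdeal R).spanFinrank → S) (w : Fin (maximalIdeal R).spanFinrank → ℕ),
      Ideal.span (Set.range b) = (maximalIdeal R).map (algebraMap R S) →
      (∀ i, 1 ≤ w i) → (∀ i, b i ∈ maximalIdeal S ^ w i) →
      ∀ j : ℕ, (∀ i, w i ≤ j) →
      maximalIdeal S ^ j ≤
        (⨆ i, Ideal.span {b i} * maximalIdeal S ^ (j - w i)) ⊔ maximalIdeal S ^ (j + 1) →
      ((Module.length S (S ⧸ (maximalIdeal R).map (algebraMap R S))).toNat : ℝ) * eR ≤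
        ((∏ i, w i : ℕ) : ℝ) * eS ∧ eR ≤ eS) ∧
    (∀ (r c t : ℕ), 2 ≤ r → 1 ≤ c → c ≤ t → ∀ x : Fin r → S,
      maximalIdeal S = (maximalIdeal R).map (algebraMap R S) ⊔ Ideal.span (Set.range x) →
      (∀ j < c, ∀ p : MvPolynomial (Fin r) S, p.IsHomogeneous j →
        MvPolynomial.eval x p ∈ (maximalIdeal R).map (algebraMap R S) ⊔ maximalIdeal S ^ (j + 1) →
          ∀ δ, MvPolynomial.coeff δ p ∈ maximalIdeal S) →
      maximalIdeal S ^ t ≤ (maximalIdeal R).map (algebraMap R S) →
      ∀ d : ℕ, ringKrullDim R = d →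
      ((Module.length S (S ⧸ (maximalIdeal R).map (algebraMap R S))).toNat : ℝ) * eR ≤
        ((t - c + 1 : ℕ) : ℝ) ^ d * eS ∧
      ((t - c + 1) ^ d ≤ (Module.length S (S ⧸ (maximalIdeal R).map (algebraMap R S))).toNat →
        eR ≤ eS) ∧
      (c = t →
        eS = ((Module.length S (S ⧸ (maximalIdeal R).map (algebraMap R S))).toNat : ℝ) * eR)) ∧
    (∀ t : ℕ, 2 ≤ t → maximalIdeal S ^ t ≤ (maximalIdeal R).map (algebraMap R S) →
      ∀ d : ℕ, ringKrullDim R = d →
      (t - 1) ^ d ≤ (Module.length S (S ⧸ (maximalIdeal R).map (algebraMap R S))).toNat →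
      eR ≤ eS) ∧
    (∀ w : ℕ, 1 ≤ w → maximalIdeal S ^ (w + 1) ≤ (maximalIdeal R).map (algebraMap R S) →
      (maximalIdeal R).map (algebraMap R S) ≤ maximalIdeal S ^ w → eR ≤ eS) :=
  ⟨fun b w hspan hw hb j hj hlead =>
      A0_LeadingForms.result b w hspan hw hb j hj hlead eR eS hR hS,
    fun r c t hr hc hct x hgen hind hfib d hd =>
      A_LowDegreeFree.result r c t hr hc hct x hgen hind hfib d hd eR eS hR hS,
    fun t ht hfib d hd hlen => B_LoewyLength.result t ht hfib d hd hlen eR eS hR hS,
    fun w hw h1 h2 => A1_BetweenPowers.result w hw h1 h2 eR eS hR hS⟩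

end Vale.Agent.Results.P202.A00_Combined
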