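import Vale.Agent.Lib.P202.Leading

/-!
# Lech's inequality when the leading forms of generators of `𝔪 S` generate a primary ideal
-/

namespace Vale.Agent.Results.P202.A0_LeadingForms

open IsLocalRing Vale.Agent.P202

/-- Let `(R, 𝔪) → (S, 𝔫)` be a flat local homomorphism of Noetherian local rings and let
`r` be the minimal number of generators of `𝔪`.  Suppose `𝔪 S = (b_1, …, b_r)` with
`b_i ∈ 𝔫 ^ (w_i)`, `w_i ≥ 1`, and that for some `j ≥ max w_i`
`𝔫 ^ j ⊆ ∑ b_i 𝔫 ^ (j - w_i) + 𝔫 ^ (j + 1)`, i.e. the degree `w_i` leading forms of the `b_i`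
generate the degree `j` part of the associated graded ring of `S`.
Then `ℓ(S / 𝔪 S) e(R) ≤ w_1 ⋯ w_r e(S)` and `e(R) ≤ e(S)`. -/
theorem result {R S : Type*} [CommRing R] [CommRing S] [IsLocalRing R] [IsLocalRing S]
    [IsNoetherianRing R] [IsNoetherianRing S] [Algebra R S] [IsLocalHom (algebraMap R S)]
    [Module.Flat R S]
    (b : Fin (maximalIdeal R).spanFinrank → S) (w : Fin (maximalIdeal R).spanFinrank → ℕ)
    (hspan : Ideal.span (Set.range b) = (maximalIdeal R).map (algebraMap R S))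
    (hw : ∀ i, 1 ≤ w i) (hb : ∀ i, b i ∈ maximalIdeal S ^ w i)
    (j : ℕ) (hj : ∀ i, w i ≤ j)
    (hlead : maximalIdeal S ^ j ≤
      (⨆ i, Ideal.span {b i} * maximalIdeal S ^ (j - w i)) ⊔ maximalIdeal S ^ (j + 1))
    (eR eS : ℝ) (hR : IsHSMultiplicity R eR) (hS : IsHSMultiplicity S eS) :
    ((Module.length S (S ⧸ (maximalIdeal R).map (algebraMap R S))).toNat : ℝ) * eR ≤
      ((∏ i, w i : ℕ) : ℝ) * eS ∧ eR ≤ eS :=
  lech_leading' b w hspan hw hb j hj hlead eR eS hR hS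

end Vale.Agent.Results.P202.A0_LeadingForms
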